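import Crest.Agent.R18.Dict

/-! Row 18 toolkit: residue fields of finite levels. -/

set_option autoImplicit false
set_option linter.unusedSectionVars false
open scoped Pointwise NumberField
open IsDedekindDomain Crest.NumberTheoryR IsLocalRing

namespace Crest.Agent.R18

variable {F E : Type*} [Field F] [NumberField F] [Field E] [Algebra F E] [IsGalois F E]
variable {A : ValuationSubring E}

theorem res_eq_iff (x y : A) : residue A x = residue A y ↔ A.valuation ((x : E) - y) < 1 := by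
  rw [← sub_eq_zero, ← map_sub, residue_eq_zero_iff, A.valuation_lt_one_iff]
  rfl

theorem res_charP {q : ℕ} (hA : Over A q) : CharP (ResidueField A) q := by
  have : Fact q.Prime := ⟨hA.1⟩
  rw [CharP.charP_iff_prime_eq_zero hA.1]
  have := (res_eq_iff (q : A) 0).mpr (by simpa using hA.2)
  simpa using this

/-- the residue field of the fixed field of `U` -/
def resSub (A : ValuationSubring E) (U : Subgroup (E ≃ₐ[F] E)) : Subfield (ResidueField A) where
  carrier := {r | ∃ x : A, Fix U (x : E) ∧ residue A x = r}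
  mul_mem' := by
    rintro _ _ ⟨x, hx, rfl⟩ ⟨y, hy, rfl⟩
    exact ⟨x * y, fun g hg => by simp [hx g hg, hy g hg], map_mul _ _ _⟩
  one_mem' := ⟨1, fun g _ => by simp, map_one _⟩
  add_mem' := by
    rintro _ _ ⟨x, hx, rfl⟩ ⟨y, hy, rfl⟩
    exact ⟨x + y, fun g hg => by simp [hx g hg, hy g hg], map_add _ _ _⟩
  zero_mem' := ⟨0, fun g _ => by simp, map_zero _⟩
  neg_mem' := by
    rintro _ ⟨x, hx, rfl⟩
    exact ⟨-x, fun g hg => by simp [hx g hg], map_neg _ _⟩
  inv_mem' := by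
    rintro _ ⟨x, hx, rfl⟩
    by_cases h0 : residue A x = 0
    · exact ⟨0, fun g _ => by simp, by simp [h0]⟩
    · have hv : A.valuation (x : E) = 1 := by
        rw [← A.valuation_eq_one_iff, ← notMem_maximalIdeal]
        rwa [residue_eq_zero_iff] at h0
      have hx0 : (x : E) ≠ 0 := by intro e; simp [e] at hv
      refine ⟨⟨(x : E)⁻¹, (A.valuation_le_one_iff _).mp (by simp [hv])⟩,
        fun g hg => by simp [hx g hg], ?_⟩
      apply eq_inv_of_mul_eq_one_left
      rw [← map_mul, ← map_one (residue A)]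
      congr 1
      exact Subtype.ext (inv_mul_cancel₀ hx0)

theorem res_reps (U : Subgroup (E ≃ₐ[F] E)) (hU : IsOpen (U : Set (E ≃ₐ[F] E))) {q : ℕ}
    (hA : Over A q) : ∃ T : Set E, T.Finite ∧ (∀ t ∈ T, t ∈ A ∧ Fix U t) ∧
      ∀ x ∈ A, Fix U x → ∃ t ∈ T, A.valuation (x - t) < 1 := by
  have := numberField_fixedField U hU
  set K := IntermediateField.fixedField U
  obtain ⟨𝔭, -, h⟩ := exists_prime_below (algebraMap K E) A hA
  have lt : ∀ x : K, A.valuation (x : E) < 1 ↔ 𝔭.valuation K x < 1 := fun x => by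
    have := h 1 x
    simp only [map_one] at this
    rw [← not_le, ← not_le, ← this]
    rfl
  have le : ∀ x : K, A.valuation (x : E) ≤ 1 ↔ 𝔭.valuation K x ≤ 1 := fun x => by
    simpa using h x 1
  have : Finite (𝓞 K ⧸ 𝔭.asIdeal) := Ideal.finiteQuotientOfFreeOfNeBot _ 𝔭.ne_bot
  refine ⟨Set.range fun c : 𝓞 K ⧸ 𝔭.asIdeal => (((Quotient.out c : 𝓞 K) : K) : E),
    Set.finite_range _, ?_, fun x hx hfx => ?_⟩
  · rintro _ ⟨c, rfl⟩
    exact ⟨(A.valuation_le_one_iff _).mp ((le _).mpr (𝔭.valuation_le_one _)),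
      (fix_iff_mem _ _).mpr (Subtype.prop _)⟩
  · let y : K := ⟨x, (fix_iff_mem _ _).mp hfx⟩
    obtain ⟨a, ha⟩ := 𝔭.exists_valuation_sub_lt_of_integer
      ((le y).mp ((A.valuation_le_one_iff _).mpr hx)) 1
    refine ⟨_, ⟨Ideal.Quotient.mk _ a, rfl⟩, ?_⟩
    have h1 : a - Quotient.out (Ideal.Quotient.mk 𝔭.asIdeal a) ∈ 𝔭.asIdeal := by
      rw [← Ideal.Quotient.eq, Ideal.Quotient.mk_out]
    have h2 := (𝔭.valuation_lt_one_iff_mem (K := K) _).mpr h1
    have h3 : 𝔭.valuation K (y - ((Quotient.out (Ideal.Quotient.mk 𝔭.asIdeal a) : 𝓞 K) : K)) < 1 := by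
      have e : y - ((Quotient.out (Ideal.Quotient.mk 𝔭.asIdeal a) : 𝓞 K) : K) =
          algebraMap (𝓞 K) K (a - Quotient.out (Ideal.Quotient.mk 𝔭.asIdeal a)) -
            (algebraMap (𝓞 K) K a - y) := by
        rw [map_sub]; ring
      rw [e]
      exact Valuation.map_sub_lt _ h2 (by simpa using ha)
    exact (lt _).mpr h3

theorem resSub_finite (U : Subgroup (E ≃ₐ[F] E)) (hU : IsOpen (U : Set (E ≃ₐ[F] E))) {q : ℕ}
    (hA : Over A q) : Finite (resSub A U) := by
  obtain ⟨T, hT, h1, h2⟩ := res_reps U hU hA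
  have := hT.to_subtype
  refine Finite.of_surjective
    (fun t : T => (⟨residue A ⟨t, (h1 t t.2).1⟩, _, (h1 t t.2).2, rfl⟩ : resSub A U)) ?_
  rintro ⟨_, x, hx, rfl⟩
  obtain ⟨t, ht, hv⟩ := h2 x x.2 hx
  exact ⟨⟨t, ht⟩, Subtype.ext ((res_eq_iff _ _).mpr hv).symm⟩

theorem ff_pow {k : Type*} [Field k] (q : ℕ) [Fact q.Prime] [CharP k q] (L : Subfield k)
    [Finite L] (ψ : k →+* k) (h : ∀ x ∈ L, ψ x ∈ L) : ∃ a : ℕ, ∀ x ∈ L, ψ x = x ^ (q ^ a) := by
  let _ : Algebra (ZMod q) L := ZMod.algebra L q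
  let ψ' : L →+* L := (ψ.comp L.subtype).codRestrict L fun x => h x x.2
  let ψ'' : L →ₐ[ZMod q] L :=
    ⟨ψ', fun r => RingHom.congr_fun
      (Subsingleton.elim (ψ'.comp (algebraMap (ZMod q) L)) (algebraMap (ZMod q) L)) r⟩
  obtain ⟨a, ha⟩ := FiniteField.exists_forall_apply_eq_pow (ZMod q) q L
    (AlgEquiv.ofBijective ψ'' (Finite.injective_iff_bijective.mp ψ'.injective))
  refine ⟨a, fun x hx => ?_⟩
  have := congrArg Subtype.val (ha ⟨x, hx⟩)
  rw [Nat.card_zmod] at this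
  exact this

/-- the degree of the residue field -/
theorem res_deg (U : Subgroup (E ≃ₐ[F] E)) (hU : IsOpen (U : Set (E ≃ₐ[F] E))) {q : ℕ}
    (hA : Over A q) : ∃ f : ℕ, 0 < f ∧ ∀ a : ℕ,
      (∀ x ∈ A, Fix U x → A.valuation (x - x ^ (q ^ a)) < 1) ↔ f ∣ a := by
  have := resSub_finite U hU hA
  have := Fintype.ofFinite (resSub A U)
  have := res_charP hA
  obtain ⟨f, -, hf⟩ := FiniteField.card (resSub A U) q
  refine ⟨f, f.2, fun a => ⟨fun h => ?_, ?_⟩⟩
  · have h1 : ∀ x : (resSub A U)ˣ, x ^ (q ^ a - 1) = 1 := by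
      rintro x
      obtain ⟨y, hy, e⟩ := x.1.2
      have h2 := (res_eq_iff y (y ^ q ^ a)).mpr (h y y.2 hy)
      rw [map_pow, e] at h2
      have h3 : x = x ^ q ^ a := Units.ext (Subtype.ext h2)
      have h4 : q ^ a = (q ^ a - 1) + 1 := by have := Nat.one_le_pow a q hA.1.pos; omega
      rw [h4, pow_succ] at h3
      exact (right_eq_mul.mp h3)
    rw [FiniteField.forall_pow_eq_one_iff, hf] at h1
    have h2 := Nat.pow_sub_one_gcd_pow_sub_one q f a
    rw [Nat.gcd_eq_left h1] at h2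
    have h3 : q ^ (f : ℕ) = q ^ Nat.gcd f a := by
      have := Nat.one_le_pow f q hA.1.pos
      have := Nat.one_le_pow (Nat.gcd f a) q hA.1.pos
      omega
    rw [Nat.pow_right_injective hA.1.two_le h3]
    exact Nat.gcd_dvd_right _ _
  · rintro ⟨b, rfl⟩ x hx hfx
    refine (res_eq_iff ⟨x, hx⟩ (⟨x, hx⟩ ^ q ^ (f * b))).mp ?_
    have := congrArg Subtype.val
      (FiniteField.pow_card_pow b (⟨residue A ⟨x, hx⟩, _, hfx, rfl⟩ : resSub A U))
    rw [hf, ← pow_mul] at this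
    rw [map_pow]
    exact this.symm

/-- the automorphism of `A` induced by a decomposition element -/
def stabEquiv {g : E ≃ₐ[F] E} (hg : Stab A g) : A ≃+* A where
  toFun x := ⟨g x, (hg x).mpr x.2⟩
  invFun x := ⟨g.symm x, (hg _).mp (by simp)⟩
  left_inv x := Subtype.ext (g.symm_apply_apply _)
  right_inv x := Subtype.ext (g.apply_symm_apply _)
  map_mul' x y := Subtype.ext (map_mul g _ _)
  map_add' x y := Subtype.ext (map_add g _ _)

theorem dec_level {q : ℕ} (hA : Over A q) {g : E ≃ₐ[F] E} (hg : Stab A g)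
    (W : Subgroup (E ≃ₐ[F] E)) (hn : W.Normal) (hW : IsOpen (W : Set (E ≃ₐ[F] E))) :
    ∃ a : ℕ, ∀ x ∈ A, Fix W x → A.valuation (g x - x ^ (q ^ a)) < 1 := by
  have : Fact q.Prime := ⟨hA.1⟩
  have := resSub_finite W hW hA
  have := res_charP hA
  obtain ⟨a, ha⟩ := ff_pow q (resSub A W)
    (ResidueField.map (stabEquiv hg : A →+* A)) (by
      rintro _ ⟨x, hx, rfl⟩
      refine ⟨stabEquiv hg x, fun w hw => ?_, by rw [ResidueField.map_residue]; rfl⟩
      have := hx _ (hn.conj_mem' w hw g)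
      change w (g x) = g x
      conv_rhs => rw [← this]
      simp)
  refine ⟨a, fun x hx hfx => ?_⟩
  have := ha _ ⟨⟨x, hx⟩, hfx, rfl⟩
  rw [ResidueField.map_residue, ← map_pow, res_eq_iff] at this
  exact this

theorem isClosed_apply (x : E) (P : E → Prop) : IsClosed {w : E ≃ₐ[F] E | P (w x)} := by
  rw [← isOpen_compl_iff, isOpen_iff_forall_mem_open]
  intro w hw
  have hop : IsOpen (MulAction.stabilizer (E ≃ₐ[F] E) x : Set (E ≃ₐ[F] E)) :=
    stabilizer_isOpen_of_isIntegral x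
  refine ⟨(fun y => w⁻¹ * y) ⁻¹' MulAction.stabilizer (E ≃ₐ[F] E) x, fun y hy => ?_,
    hop.preimage (by fun_prop), by simp⟩
  have h1 : (w⁻¹ * y) x = x := hy
  have h2 : y x = w x := by
    conv_rhs => rw [← h1]
    simp
  simpa [h2] using hw

theorem val_pow_sub_lt {x y : E} (hx : x ∈ A) (hy : y ∈ A) (h : A.valuation (x - y) < 1) (n : ℕ) :
    A.valuation (x ^ n - y ^ n) < 1 := by
  have := (res_eq_iff ⟨x, hx⟩ ⟨y, hy⟩).mpr h
  exact (res_eq_iff (⟨x, hx⟩ ^ n) (⟨y, hy⟩ ^ n)).mp (by rw [map_pow, map_pow, this])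

theorem val_sub_trans {x y z : E} (h : A.valuation (x - y) < 1) (h' : A.valuation (y - z) < 1) :
    A.valuation (x - z) < 1 := by
  have := Valuation.map_add_lt _ h h'
  rwa [sub_add_sub_cancel] at this

theorem val_sub_symm {x y : E} (h : A.valuation (x - y) < 1) : A.valuation (y - x) < 1 := by
  rwa [Valuation.map_sub_swap]

end Crest.Agent.R18
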